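import Vale.Agent.Lib.P328.Rows

/-!
# Coefficients of the row polynomials
-/

namespace Vale.Agent.Lib.P328

open Finset MvPolynomial

variable {n : ℕ}


theorem sum_single_apply (a : Fin n) (e : ℕ) : ∑ j, (Finsupp.single a e : Fin n →₀ ℕ) j = e := by
  simp [Finsupp.single_apply]

theorem coeff_one_eq (d : Fin n →₀ ℕ) :
    coeff d (1 : MvPolynomial (Fin n) ℕ) = if ∑ j, d j = 0 then 1 else 0 := by
  rw [coeff_one]
  by_cases h : d = 0
  · subst h
    simp
  · rw [if_neg (Ne.symm h), if_neg]
    intro h0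
    apply h
    ext j
    have := (Finset.sum_eq_zero_iff.mp h0) j (Finset.mem_univ j)
    simpa using this

theorem coeff_sum_X (d : Fin n →₀ ℕ) :
    coeff d (∑ j, X j : MvPolynomial (Fin n) ℕ) = if ∑ j, d j = 1 then 1 else 0 := by
  rw [coeff_sum]
  simp only [coeff_X']
  by_cases h : ∑ j, d j = 1
  · rw [if_pos h]
    obtain ⟨a, rfl⟩ := eq_single_of_sum_one d h
    rw [Finset.sum_eq_single a]
    · simp
    · intro j _ hj
      rw [if_neg]
      intro heq
      exact hj ((Finsupp.single_left_inj one_ne_zero).mp heq)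
    · intro ha
      exact absurd (Finset.mem_univ a) ha
  · rw [if_neg h]
    apply Finset.sum_eq_zero
    intro j _
    rw [if_neg]
    intro heq
    apply h
    rw [← heq]
    exact sum_single_apply j 1



theorem single_add_single_eq_iff (j k a b : Fin n) :
    (Finsupp.single j 1 + Finsupp.single k 1 : Fin n →₀ ℕ) = Finsupp.single a 1 + Finsupp.single b 1
      ↔ (j = a ∧ k = b) ∨ (j = b ∧ k = a) := by
  constructor
  · intro h
    have hj := DFunLike.congr_fun h j
    have hk := DFunLike.congr_fun h k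
    have ha := DFunLike.congr_fun h a
    have hb := DFunLike.congr_fun h b
    simp only [Finsupp.add_apply, Finsupp.single_apply] at hj hk ha hb
    grind
  · rintro (⟨rfl, rfl⟩ | ⟨rfl, rfl⟩)
    · rfl
    · exact add_comm _ _

theorem single_two_eq_iff (j a b : Fin n) :
    (Finsupp.single j 2 : Fin n →₀ ℕ) = Finsupp.single a 1 + Finsupp.single b 1
      ↔ (j = a ∧ j = b) := by
  constructor
  · intro h
    have hj := DFunLike.congr_fun h j
    simp only [Finsupp.add_apply, Finsupp.single_apply] at hj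
    grind
  · rintro ⟨rfl, rfl⟩
    rw [← Finsupp.single_add]

theorem sq_sum_X :
    ((∑ j, X j : MvPolynomial (Fin n) ℕ)) ^ 2
      = ∑ j, ∑ k, monomial (Finsupp.single j 1 + Finsupp.single k 1) 1 := by
  rw [sq, Finset.sum_mul_sum]
  refine Finset.sum_congr rfl fun j _ => Finset.sum_congr rfl fun k _ => ?_
  rw [X, X, monomial_mul, mul_one]

theorem count_pairs (a b : Fin n) :
    (∑ j, ∑ k, (if (j = a ∧ k = b) ∨ (j = b ∧ k = a) then 1 else 0 : ℕ))
      + ∑ j, (if (j = a ∧ j = b) then 1 else 0 : ℕ) = 2 := by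
  by_cases hab : a = b
  · subst hab
    have h1 : ∀ j k : Fin n, (if (j = a ∧ k = a) ∨ (j = a ∧ k = a) then 1 else 0 : ℕ)
        = (if j = a then (if k = a then 1 else 0) else 0) := by
      intro j k
      by_cases hja : j = a <;> by_cases hka : k = a <;> simp_all
    have h2 : ∀ j : Fin n, (if (j = a ∧ j = a) then 1 else 0 : ℕ) = (if j = a then 1 else 0) := by
      intro j
      by_cases hja : j = a <;> simp_all
    simp only [h1, h2]
    simp
  · have h2 : ∑ j, (if (j = a ∧ j = b) then 1 else 0 : ℕ) = 0 := by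
      apply Finset.sum_eq_zero
      intro j _
      rw [if_neg]
      rintro ⟨rfl, rfl⟩
      exact hab rfl
    rw [h2, add_zero]
    have h1 : ∀ j k : Fin n, (if (j = a ∧ k = b) ∨ (j = b ∧ k = a) then 1 else 0 : ℕ)
        = (if j = a then (if k = b then 1 else 0) else 0)
          + (if j = b then (if k = a then 1 else 0) else 0) := by
      intro j k
      by_cases hja : j = a <;> by_cases hkb : k = b <;> by_cases hjb : j = b <;>
        by_cases hka : k = a <;> simp_all
    simp only [h1, Finset.sum_add_distrib]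
    simp

theorem coeff_sq_add (d : Fin n →₀ ℕ) :
    coeff d ((∑ j, X j : MvPolynomial (Fin n) ℕ) ^ 2 + ∑ j, X j ^ 2)
      = if ∑ j, d j = 2 then 2 else 0 := by
  rw [sq_sum_X, coeff_add, coeff_sum, coeff_sum]
  simp only [coeff_sum, X_pow_eq_monomial, coeff_monomial]
  by_cases h : ∑ j, d j = 2
  · rw [if_pos h]
    obtain ⟨a, b, rfl⟩ := eq_single_add_single_of_sum_two d h
    simp only [single_add_single_eq_iff, single_two_eq_iff]
    exact count_pairs a b
  · rw [if_neg h]
    have h1 : ∀ j k : Fin n, (Finsupp.single j 1 + Finsupp.single k 1 : Fin n →₀ ℕ) ≠ d := by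
      intro j k heq
      apply h
      rw [← heq]
      simp only [Finsupp.add_apply, Finset.sum_add_distrib, sum_single_apply]
    have h2 : ∀ j : Fin n, (Finsupp.single j 2 : Fin n →₀ ℕ) ≠ d := by
      intro j heq
      apply h
      rw [← heq]
      exact sum_single_apply j 2
    simp [h1, h2]



theorem coeff_prod_poly {m : ℕ} (f : Fin m → MvPolynomial (Fin n) ℕ) (c : Fin n →₀ ℕ) :
    coeff c (∏ i, f i) = ∑ l ∈ finsuppAntidiag univ c, ∏ i, coeff (l i) (f i) := by
  have h := MvPowerSeries.coeff_prod (fun i => (f i : MvPowerSeries (Fin n) ℕ)) c univ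
  rw [← coeff_coe, ← coeToMvPowerSeries.ringHom_apply, map_prod]
  simp only [coeToMvPowerSeries.ringHom_apply]
  rw [h]
  simp only [coeff_coe]

/-- tables as finitely supported families -/
noncomputable def tableEquiv (m n : ℕ) :
    (Fin m → Fin n → ℕ) ≃ (Fin m →₀ (Fin n →₀ ℕ)) :=
  (Equiv.piCongrRight (fun _ => (Finsupp.equivFunOnFinite (α := Fin n) (M := ℕ)).symm)).trans
    Finsupp.equivFunOnFinite.symm

theorem tableEquiv_apply {m : ℕ} (Y : Fin m → Fin n → ℕ) (i : Fin m) (j : Fin n) :
    tableEquiv m n Y i j = Y i j := rfl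

theorem card_tables {m : ℕ} (r : Fin m → ℕ) (c : Fin n → ℕ) :
    Nat.card {Y : Fin m → Fin n → ℕ // (∀ i, ∑ j, Y i j = r i) ∧ (∀ j, ∑ i, Y i j = c j)}
      = ((finsuppAntidiag univ (Finsupp.equivFunOnFinite.symm c)).filter
          (fun l : Fin m →₀ (Fin n →₀ ℕ) => ∀ i, ∑ j, l i j = r i)).card := by
  rw [← Nat.card_eq_finsetCard]
  apply Nat.card_congr
  refine Equiv.subtypeEquiv (tableEquiv m n) ?_
  intro Y
  rw [Finset.mem_filter, mem_finsuppAntidiag]
  constructor
  · rintro ⟨h1, h2⟩
    refine ⟨⟨?_, Finset.subset_univ _⟩, ?_⟩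
    · ext j
      rw [Finsupp.coe_finset_sum, Finset.sum_apply]
      simp only [tableEquiv_apply]
      rw [h2 j]
      rfl
    · intro i
      simp only [tableEquiv_apply]
      exact h1 i
  · rintro ⟨⟨h2, -⟩, h1⟩
    refine ⟨?_, ?_⟩
    · intro i
      have := h1 i
      simp only [tableEquiv_apply] at this
      exact this
    · intro j
      have := DFunLike.congr_fun h2 j
      rw [Finsupp.coe_finset_sum, Finset.sum_apply] at this
      simp only [tableEquiv_apply] at this
      rw [this]
      rfl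



/-- The generating polynomial of the possible rows with sum `s` (for `s ≤ 2`), with weight `2`
when `s = 2`. -/
noncomputable def rowPoly (n s : ℕ) : MvPolynomial (Fin n) ℕ :=
  if s = 0 then 1 else if s = 1 then ∑ j, X j else (∑ j, X j) ^ 2 + ∑ j, X j ^ 2

theorem coeff_rowPoly (s : ℕ) (hs : s ≤ 2) (d : Fin n →₀ ℕ) :
    coeff d (rowPoly n s) = if ∑ j, d j = s then (if s = 2 then 2 else 1) else 0 := by
  unfold rowPoly
  interval_cases s
  · rw [if_pos rfl, coeff_one_eq]
    simp
  · rw [if_neg (by norm_num), if_pos rfl, coeff_sum_X]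
    simp
  · rw [if_neg (by norm_num), if_neg (by norm_num), coeff_sq_add]
    simp

theorem coeff_prod_rowPoly {m : ℕ} (r : Fin m → ℕ) (hr : ∀ i, r i ≤ 2) (c : Fin n →₀ ℕ) :
    coeff c (∏ i, rowPoly n (r i))
      = 2 ^ (univ.filter (fun i => r i = 2)).card
        * ((finsuppAntidiag univ c).filter
            (fun l : Fin m →₀ (Fin n →₀ ℕ) => ∀ i, ∑ j, l i j = r i)).card := by
  rw [coeff_prod_poly]
  have h1 : ∀ l : Fin m →₀ (Fin n →₀ ℕ), ∏ i, coeff (l i) (rowPoly n (r i))
      = if ∀ i, ∑ j, l i j = r i then 2 ^ (univ.filter (fun i => r i = 2)).card else 0 := by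
    intro l
    simp only [coeff_rowPoly _ (hr _)]
    rw [Fintype.prod_ite_zero]
    congr 1
    rw [Finset.prod_ite, Finset.prod_const, Finset.prod_const_one, mul_one]
  simp only [h1]
  rw [Finset.sum_ite, Finset.sum_const, Finset.sum_const_zero, add_zero, smul_eq_mul, mul_comm]


end Vale.Agent.Lib.P328
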