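import Vale.Agent.Lib.P328.Coeff

/-!
# Expanding the product of the row polynomials
-/

namespace Vale.Agent.Lib.P328

open Finset MvPolynomial

variable {n : ℕ}


theorem prod_rowPoly {m : ℕ} (r : Fin m → ℕ) (hr : ∀ i, r i ≤ 2) :
    ∏ i, rowPoly n (r i)
      = (∑ j, X j) ^ (univ.filter (fun i => r i = 1)).card
        * ((∑ j, X j) ^ 2 + ∑ j, X j ^ 2) ^ (univ.filter (fun i => r i = 2)).card := by
  have h : ∀ i, rowPoly n (r i) = (if r i = 1 then ∑ j, X j else 1)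
      * (if r i = 2 then (∑ j, X j) ^ 2 + ∑ j, X j ^ 2 else 1) := by
    intro i
    have := hr i
    unfold rowPoly
    interval_cases h : r i <;> simp
  simp only [h]
  rw [Finset.prod_mul_distrib, Finset.prod_ite, Finset.prod_ite]
  simp

theorem prod_X_sq_pow (ℓ : Fin n → ℕ) :
    ∏ j, ((X j : MvPolynomial (Fin n) ℕ) ^ 2) ^ ℓ j
      = monomial (Finsupp.equivFunOnFinite.symm (fun j => 2 * ℓ j)) 1 := by
  rw [monomial_eq, C_1, one_mul, Finsupp.prod_fintype]
  · refine Finset.prod_congr rfl fun j _ => ?_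
    rw [← pow_mul]
    rfl
  · intro i
    exact pow_zero _

theorem coeff_monomial_mul_pow (c : Fin n →₀ ℕ) (ℓ : Fin n → ℕ) (M k : ℕ)
    (hℓ : ∑ j, ℓ j = k) (hM : ∑ j, c j = M + 2 * k) :
    coeff c (monomial (Finsupp.equivFunOnFinite.symm (fun j => 2 * ℓ j)) 1
        * (∑ j, X j : MvPolynomial (Fin n) ℕ) ^ M)
      = if ∀ j, 2 * ℓ j ≤ c j then Nat.multinomial univ (fun j => c j - 2 * ℓ j) else 0 := by
  rw [coeff_monomial_mul', one_mul]
  by_cases h : ∀ j, 2 * ℓ j ≤ c j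
  · have hle : (Finsupp.equivFunOnFinite.symm (fun j => 2 * ℓ j) : Fin n →₀ ℕ) ≤ c :=
      fun j => h j
    rw [if_pos hle, if_pos h, coeff_sum_X_pow_of_fintype]
    have hsum : (c - Finsupp.equivFunOnFinite.symm (fun j => 2 * ℓ j) : Fin n →₀ ℕ).sum
        (fun _ e => e) = M := by
      rw [Finsupp.sum_fintype _ _ (fun _ => rfl)]
      have h1 : ∑ j, (c - Finsupp.equivFunOnFinite.symm (fun j => 2 * ℓ j) : Fin n →₀ ℕ) j
          + ∑ j, 2 * ℓ j = ∑ j, c j := by
        rw [← Finset.sum_add_distrib]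
        refine Finset.sum_congr rfl fun j _ => ?_
        have := h j
        simp only [Finsupp.coe_tsub, Pi.sub_apply, Finsupp.equivFunOnFinite_symm_apply_apply]
        omega
      rw [← Finset.mul_sum, hℓ] at h1
      omega
    rw [if_pos hsum, Finsupp.multinomial_eq_of_support_subset (Finset.subset_univ _)]
    congr 1
  · rw [if_neg h, if_neg]
    intro hle
    exact h fun j => hle j



theorem coeff_natCast_mul (c : Fin n →₀ ℕ) (N : ℕ) (P : MvPolynomial (Fin n) ℕ) :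
    coeff c ((N : MvPolynomial (Fin n) ℕ) * P) = N * coeff c P := by
  rw [← C_eq_coe_nat, coeff_C_mul]
  simp

theorem coeff_psum_pow_mul (c : Fin n →₀ ℕ) (M k : ℕ) (hM : ∑ j, c j = M + 2 * k) :
    coeff c ((∑ j, X j ^ 2 : MvPolynomial (Fin n) ℕ) ^ k * (∑ j, X j) ^ M)
      = ∑ ℓ ∈ (piAntidiag univ k).filter (fun ℓ : Fin n → ℕ => ∀ j, 2 * ℓ j ≤ c j),
          Nat.multinomial univ ℓ * Nat.multinomial univ (fun j => c j - 2 * ℓ j) := by
  rw [Finset.sum_pow_eq_sum_piAntidiag, Finset.sum_mul, coeff_sum, Finset.sum_filter]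
  refine Finset.sum_congr rfl fun ℓ hℓ => ?_
  rw [mul_assoc, coeff_natCast_mul, prod_X_sq_pow,
    coeff_monomial_mul_pow c ℓ M k (Finset.mem_piAntidiag.mp hℓ).1 hM]
  split_ifs <;> simp

theorem coeff_pow_mul (c : Fin n →₀ ℕ) (m₁ m₂ : ℕ) (hc : ∑ j, c j = m₁ + 2 * m₂) :
    coeff c ((∑ j, X j : MvPolynomial (Fin n) ℕ) ^ m₁
        * ((∑ j, X j) ^ 2 + ∑ j, X j ^ 2) ^ m₂)
      = ∑ k ∈ range (m₂ + 1), m₂.choose k *
          ∑ ℓ ∈ (piAntidiag univ k).filter (fun ℓ : Fin n → ℕ => ∀ j, 2 * ℓ j ≤ c j),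
            Nat.multinomial univ ℓ * Nat.multinomial univ (fun j => c j - 2 * ℓ j) := by
  rw [add_comm ((∑ j, X j : MvPolynomial (Fin n) ℕ) ^ 2), add_pow, Finset.mul_sum, coeff_sum]
  refine Finset.sum_congr rfl fun k hk => ?_
  have hk' : k ≤ m₂ := Nat.lt_succ_iff.mp (Finset.mem_range.mp hk)
  have hrw : (∑ j, X j : MvPolynomial (Fin n) ℕ) ^ m₁
      * ((∑ j, X j ^ 2) ^ k * ((∑ j, X j) ^ 2) ^ (m₂ - k) * (m₂.choose k : MvPolynomial (Fin n) ℕ))
      = (m₂.choose k : MvPolynomial (Fin n) ℕ)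
        * ((∑ j, X j ^ 2) ^ k * (∑ j, X j) ^ (m₁ + 2 * (m₂ - k))) := by
    ring
  rw [hrw, coeff_natCast_mul, coeff_psum_pow_mul c (m₁ + 2 * (m₂ - k)) k (by omega)]


/-- Exact count of contingency tables all of whose row sums are at most two. -/
theorem count_rows_le_two (m n : ℕ) (r : Fin m → ℕ) (c : Fin n → ℕ) (hr : ∀ i, r i ≤ 2)
    (hsum : ∑ i, r i = ∑ j, c j) :
    2 ^ (univ.filter (fun i => r i = 2)).card
        * Nat.card {Y : Fin m → Fin n → ℕ //
            (∀ i, ∑ j, Y i j = r i) ∧ (∀ j, ∑ i, Y i j = c j)}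
      = ∑ k ∈ range ((univ.filter (fun i => r i = 2)).card + 1),
          ((univ.filter (fun i => r i = 2)).card).choose k *
            ∑ ℓ ∈ (piAntidiag univ k).filter (fun ℓ : Fin n → ℕ => ∀ j, 2 * ℓ j ≤ c j),
              Nat.multinomial univ ℓ * Nat.multinomial univ (fun j => c j - 2 * ℓ j) := by
  have hsplit : ∀ i, r i = (if r i = 1 then 1 else 0) + 2 * (if r i = 2 then 1 else 0) := by
    intro i
    have := hr i
    interval_cases h : r i <;> simp
  have hrsum : ∑ i, r i = (univ.filter (fun i => r i = 1)).card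
      + 2 * (univ.filter (fun i => r i = 2)).card := by
    conv_lhs => rw [Finset.sum_congr rfl (fun i _ => hsplit i)]
    rw [Finset.sum_add_distrib, ← Finset.mul_sum, Finset.sum_boole, Finset.sum_boole]
    simp
  have hc : ∑ j, (Finsupp.equivFunOnFinite.symm c : Fin n →₀ ℕ) j
      = (univ.filter (fun i => r i = 1)).card + 2 * (univ.filter (fun i => r i = 2)).card := by
    rw [← hrsum, hsum]
    rfl
  rw [card_tables, ← coeff_prod_rowPoly r hr, prod_rowPoly r hr, coeff_pow_mul _ _ _ hc]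
  rfl

end Vale.Agent.Lib.P328
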