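import Mathlib

/-!
# Generating polynomials for rows of sum at most two

Helper lemmas for `Vale.Agent.Results.P328.RowSumsAtMostTwo`.
-/

namespace Vale.Agent.Lib.P328

open Finset MvPolynomial

variable {n : ℕ}

/-- A finitely supported vector with entries summing to `1` is a unit vector. -/
theorem eq_single_of_sum_one (d : Fin n →₀ ℕ) (h : ∑ j, d j = 1) :
    ∃ a, d = Finsupp.single a 1 := by
  have hex : ∃ a, d a ≠ 0 := by
    by_contra hcon
    push Not at hcon
    simp [hcon] at h
  obtain ⟨a, ha⟩ := hex
  refine ⟨a, ?_⟩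
  have hle : d a ≤ ∑ j, d j := Finset.single_le_sum (f := fun j => d j) (fun _ _ => Nat.zero_le _)
    (Finset.mem_univ a)
  have hda : d a = 1 := by omega
  have hrest : ∑ j ∈ Finset.univ.erase a, d j = 0 := by
    have := Finset.add_sum_erase Finset.univ (fun j => d j) (Finset.mem_univ a)
    omega
  ext j
  by_cases hj : j = a
  · subst hj
    simp [hda]
  · have : d j = 0 := by
      have h0 := (Finset.sum_eq_zero_iff.mp hrest) j (by simp [hj])
      exact h0
    rw [this, Finsupp.single_apply, if_neg (Ne.symm hj)]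

/-- A finitely supported vector with entries summing to `2` is a sum of two unit vectors. -/
theorem eq_single_add_single_of_sum_two (d : Fin n →₀ ℕ) (h : ∑ j, d j = 2) :
    ∃ a b, d = Finsupp.single a 1 + Finsupp.single b 1 := by
  have hex : ∃ a, d a ≠ 0 := by
    by_contra hcon
    push Not at hcon
    simp [hcon] at h
  obtain ⟨a, ha⟩ := hex
  have hle : Finsupp.single a 1 ≤ d := by
    intro j
    by_cases hj : j = a
    · subst hj
      simp only [Finsupp.single_eq_same]
      omega
    · rw [Finsupp.single_apply, if_neg (Ne.symm hj)]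
      exact Nat.zero_le _
  have hsum : ∑ j, (d - Finsupp.single a 1 : Fin n →₀ ℕ) j = 1 := by
    have h1 : ∑ j, (d - Finsupp.single a 1 : Fin n →₀ ℕ) j + ∑ j, (Finsupp.single a 1 : Fin n →₀ ℕ) j
        = ∑ j, d j := by
      rw [← Finset.sum_add_distrib]
      refine Finset.sum_congr rfl fun j _ => ?_
      have := hle j
      simp only [Finsupp.coe_tsub, Pi.sub_apply]
      omega
    have h2 : ∑ j, (Finsupp.single a 1 : Fin n →₀ ℕ) j = 1 := by
      simp [Finsupp.single_apply]
    omega
  obtain ⟨b, hb⟩ := eq_single_of_sum_one _ hsum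
  refine ⟨a, b, ?_⟩
  rw [← hb, add_comm]
  exact (tsub_add_cancel_of_le hle).symm

end Vale.Agent.Lib.P328
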