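import Vale.Agent.Lib.P328.Expand

/-!
# Transposed form: contingency tables whose column sums are all at most two
-/

namespace Vale.Agent.Lib.P328

open Finset

/-- transposing tables exchanges the two margins -/
theorem card_tables_transpose (m n : ℕ) (r : Fin m → ℕ) (c : Fin n → ℕ) :
    Nat.card {Y : Fin m → Fin n → ℕ // (∀ i, ∑ j, Y i j = r i) ∧ (∀ j, ∑ i, Y i j = c j)}
      = Nat.card {Z : Fin n → Fin m → ℕ //
          (∀ j, ∑ i, Z j i = c j) ∧ (∀ i, ∑ j, Z j i = r i)} := by
  apply Nat.card_congr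
  refine Equiv.subtypeEquiv (Equiv.piComm (fun (_ : Fin m) (_ : Fin n) => ℕ)) ?_
  intro Y
  constructor
  · rintro ⟨h1, h2⟩
    exact ⟨h2, h1⟩
  · rintro ⟨h1, h2⟩
    exact ⟨h2, h1⟩

/-- the count of tables whose column sums are all at most two -/
theorem count_cols_le_two (m n : ℕ) (r : Fin m → ℕ) (c : Fin n → ℕ) (hc : ∀ j, c j ≤ 2)
    (hsum : ∑ i, r i = ∑ j, c j) :
    2 ^ (univ.filter (fun j => c j = 2)).card
        * Nat.card {Y : Fin m → Fin n → ℕ //
            (∀ i, ∑ j, Y i j = r i) ∧ (∀ j, ∑ i, Y i j = c j)}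
      = ∑ k ∈ range ((univ.filter (fun j => c j = 2)).card + 1),
          ((univ.filter (fun j => c j = 2)).card).choose k *
            ∑ ℓ ∈ (piAntidiag univ k).filter (fun ℓ : Fin m → ℕ => ∀ i, 2 * ℓ i ≤ r i),
              Nat.multinomial univ ℓ * Nat.multinomial univ (fun i => r i - 2 * ℓ i) := by
  rw [card_tables_transpose]
  exact count_rows_le_two n m c r hc hsum.symm

end Vale.Agent.Lib.P328
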